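import Vale.Agent.Lib.P147G.FinalG

/-!
P147.  Let `d ≥ 4`, and let `μ` be ANY law of a random transition vector on the `2 d` unit steps of
`ℤ^d` with positive mean entries (no ellipticity is assumed).  Consider the random walk in the iid
environment with row law `μ` and a coordinate direction `e_i`.  If the walk escapes with positive
linear speed in direction `e_i` with positive annealed probability, then, for every
`β > 2 / (d - 1)`, it almost surely does not escape at polynomial rate `n ^ β` in direction `-e_i`.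
-/

open MeasureTheory ProbabilityTheory Filter
open Vale.Agent.Lib.P147

namespace Vale.Agent.Results.P147.BallisticVsPolynomial

theorem result {d : ℕ} (hd : 4 ≤ d)
    (μ : Measure (Step d → ℝ))
    (hμ : ∀ᵐ p ∂μ, (∀ e, 0 ≤ p e) ∧ ∑ e, p e = 1)
    (hpos : ∀ e, 0 < ∫ p, p e ∂μ)
    {Ω : Type*} [MeasurableSpace Ω] (P : Measure Ω)
    (env : (Fin d → ℤ) → Ω → Step d → ℝ) (X : ℕ → Ω → Fin d → ℤ)
    (hX : IsRWRE P μ env X) (i : Fin d)
    (hup : 0 < P {ω | ∃ c : ℝ, 0 < c ∧ ∀ᶠ n : ℕ in atTop, c * n ≤ (X n ω i : ℝ)})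
    {β : ℝ} (hβ : 2 / ((d : ℝ) - 1) < β) :
    P {ω | ∀ᶠ n : ℕ in atTop, (X n ω i : ℝ) ≤ -((n : ℝ) ^ β)} = 0 :=
  Vale.Agent.Lib.P147G.ballistic_poly hd P μ env X hX hμ hpos i hup hβ

end Vale.Agent.Results.P147.BallisticVsPolynomial
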