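import Vale.Agent.Lib.P147H.Direction

/-!
P147.  Let `d ≥ 4`, and let `μ` be ANY law of a random transition vector on the `2 d` unit steps of
`ℤ^d` with positive mean entries (no ellipticity is assumed).  Consider the random walk `X` in the
iid environment with row law `μ`, and `β₁, β₂ ∈ (0, 1]` with `1 / β₁ + 1 / β₂ < (d + 1) / 2`.

* For every coordinate direction `e_i`: escape in direction `e_i` at rate `c n ^ β₁` and escape in
  direction `- e_i` at rate `c n ^ β₂` do not both have positive annealed probability.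
* For all vectors `u, w` with `u i * w i < 0` for some `i` (in particular `w = - u ≠ 0`): the walk
  does not have both, with positive probability, the asymptotic direction `u` with distance at least
  `c n ^ β₁`, and, with positive probability, the asymptotic direction `w` with distance at least
  `c n ^ β₂`.
-/

open MeasureTheory ProbabilityTheory Filter
open scoped Topology
open Vale.Agent.Lib.P147

namespace Vale.Agent.Results.P147.OppositeDirections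

theorem result {d : ℕ} (hd : 4 ≤ d)
    (μ : Measure (Step d → ℝ))
    (hμ : ∀ᵐ p ∂μ, (∀ e, 0 ≤ p e) ∧ ∑ e, p e = 1)
    (hpos : ∀ e, 0 < ∫ p, p e ∂μ)
    {Ω : Type*} [MeasurableSpace Ω] (P : Measure Ω)
    (env : (Fin d → ℤ) → Ω → Step d → ℝ) (X : ℕ → Ω → Fin d → ℤ)
    (hX : IsRWRE P μ env X) {β₁ β₂ : ℝ}
    (hβ₁ : 0 < β₁) (hβ₁1 : β₁ ≤ 1) (hβ₂ : 0 < β₂) (hβ₂1 : β₂ ≤ 1)
    (hq : 1 / β₁ + 1 / β₂ < ((d : ℝ) + 1) / 2) :
    (∀ i : Fin d,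
      P {ω | ∃ c : ℝ, 0 < c ∧ ∀ᶠ n : ℕ in atTop, c * (n : ℝ) ^ β₁ ≤ (X n ω i : ℝ)} = 0 ∨
      P {ω | ∃ c : ℝ, 0 < c ∧ ∀ᶠ n : ℕ in atTop, (X n ω i : ℝ) ≤ -(c * (n : ℝ) ^ β₂)} = 0) ∧
    (∀ u w : Fin d → ℝ, (∃ i, u i * w i < 0) →
      P {ω | ∃ r : ℕ → ℝ, (∃ c : ℝ, 0 < c ∧ ∀ᶠ n : ℕ in atTop, c * (n : ℝ) ^ β₁ ≤ r n) ∧
        ∀ j, Tendsto (fun n => (X n ω j : ℝ) / r n) atTop (𝓝 (u j))} = 0 ∨
      P {ω | ∃ r : ℕ → ℝ, (∃ c : ℝ, 0 < c ∧ ∀ᶠ n : ℕ in atTop, c * (n : ℝ) ^ β₂ ≤ r n) ∧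
        ∀ j, Tendsto (fun n => (X n ω j : ℝ) / r n) atTop (𝓝 (w j))} = 0) :=
  ⟨fun i => Vale.Agent.Lib.P147H.final4c hd P μ env X hX hμ hpos i hβ₁ hβ₁1 hβ₂ hβ₂1 hq,
    fun _ _ hu => Vale.Agent.Lib.P147H.final5 hd P μ env X hX hμ hpos hu hβ₁ hβ₁1 hβ₂ hβ₂1 hq⟩

end Vale.Agent.Results.P147.OppositeDirections
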