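import Vale.Agent.Lib.P147H.Final4

/-!
P147.  Let `d ≥ 4`, and let `μ` be ANY law of a random transition vector on the `2 d` unit steps of
`ℤ^d` with positive mean entries (no ellipticity is assumed).  Consider the random walk `X` in the
iid environment with row law `μ` and a coordinate direction `e_i`.  If `β₁, β₂ ∈ (0, 1]` and
`1 / β₁ + 1 / β₂ < (d + 1) / 2`, then escape in direction `e_i` at rate `c n ^ β₁` (some random
`c > 0`) and escape in direction `- e_i` at rate `c n ^ β₂` do not both have positive annealed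
probability.
-/

open MeasureTheory ProbabilityTheory Filter
open Vale.Agent.Lib.P147

namespace Vale.Agent.Results.P147.PolynomialEscape

theorem result {d : ℕ} (hd : 4 ≤ d)
    (μ : Measure (Step d → ℝ))
    (hμ : ∀ᵐ p ∂μ, (∀ e, 0 ≤ p e) ∧ ∑ e, p e = 1)
    (hpos : ∀ e, 0 < ∫ p, p e ∂μ)
    {Ω : Type*} [MeasurableSpace Ω] (P : Measure Ω)
    (env : (Fin d → ℤ) → Ω → Step d → ℝ) (X : ℕ → Ω → Fin d → ℤ)
    (hX : IsRWRE P μ env X) (i : Fin d) {β₁ β₂ : ℝ}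
    (hβ₁ : 0 < β₁) (hβ₁1 : β₁ ≤ 1) (hβ₂ : 0 < β₂) (hβ₂1 : β₂ ≤ 1)
    (hq : 1 / β₁ + 1 / β₂ < ((d : ℝ) + 1) / 2) :
    P {ω | ∃ c : ℝ, 0 < c ∧ ∀ᶠ n : ℕ in atTop, c * (n : ℝ) ^ β₁ ≤ (X n ω i : ℝ)} = 0 ∨
    P {ω | ∃ c : ℝ, 0 < c ∧ ∀ᶠ n : ℕ in atTop, (X n ω i : ℝ) ≤ -(c * (n : ℝ) ^ β₂)} = 0 :=
  Vale.Agent.Lib.P147H.final4c hd P μ env X hX hμ hpos i hβ₁ hβ₁1 hβ₂ hβ₂1 hq

end Vale.Agent.Results.P147.PolynomialEscape
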