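import Vale.Agent.Lib.P147H.Final3

/-!
P147.  Let `d ≥ 4`, and let `μ` be ANY law of a random transition vector on the `2 d` unit steps of
`ℤ^d` with positive mean entries (no ellipticity is assumed).  Consider the random walk `X` in the
iid environment with row law `μ`, a coordinate direction `e_i` and a sign `σ = ±1`.

* If `X` escapes with positive linear speed in direction `σ e_i` with positive annealed
  probability, then for every `β > 2 / (d - 1)` it almost surely does not escape at polynomial rate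
  `n ^ β` in direction `-σ e_i`.
* For all `β₁, β₂ ∈ (0, 1]` with `2 / β₁ + 1 / β₂ < (d - 1) / 2`, the events
  `X_n · σ e_i ≥ n ^ β₁` for all large `n`, and `X_n · (-σ e_i) ≥ n ^ β₂` for all large `n`,
  do not both have positive probability.
-/

open MeasureTheory ProbabilityTheory Filter
open Vale.Agent.Lib.P147

namespace Vale.Agent.Results.P147.PolynomialRates

theorem result {d : ℕ} (hd : 4 ≤ d)
    (μ : Measure (Step d → ℝ))
    (hμ : ∀ᵐ p ∂μ, (∀ e, 0 ≤ p e) ∧ ∑ e, p e = 1)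
    (hpos : ∀ e, 0 < ∫ p, p e ∂μ)
    {Ω : Type*} [MeasurableSpace Ω] (P : Measure Ω)
    (env : (Fin d → ℤ) → Ω → Step d → ℝ) (X : ℕ → Ω → Fin d → ℤ)
    (hX : IsRWRE P μ env X) (i : Fin d) {σ : ℝ} (hσ : σ = 1 ∨ σ = -1) :
    (∀ β : ℝ, 2 / ((d : ℝ) - 1) < β →
      0 < P {ω | ∃ c : ℝ, 0 < c ∧ ∀ᶠ n : ℕ in atTop, c * n ≤ σ * (X n ω i : ℝ)} →
      P {ω | ∀ᶠ n : ℕ in atTop, (n : ℝ) ^ β ≤ -σ * (X n ω i : ℝ)} = 0) ∧
    (∀ β₁ β₂ : ℝ, 0 < β₁ → β₁ ≤ 1 → 0 < β₂ → β₂ ≤ 1 → 2 / β₁ + 1 / β₂ < ((d : ℝ) - 1) / 2 →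
      P {ω | ∀ᶠ n : ℕ in atTop, (n : ℝ) ^ β₁ ≤ σ * (X n ω i : ℝ)} = 0 ∨
      P {ω | ∀ᶠ n : ℕ in atTop, (n : ℝ) ^ β₂ ≤ -σ * (X n ω i : ℝ)} = 0) :=
  Vale.Agent.Lib.P147H.final3 hd P μ env X hX hμ hpos i hσ

end Vale.Agent.Results.P147.PolynomialRates
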